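import Vale.Agent.P315.H801.LaneSpec
import Vale.Agent.P315.H220.Num
import Vale.Agent.P315.C.Stmt

/-!
P315 (helper801): the machines of the additive geometry, over `C.Alg`.

A machine of scale `s` in a region of level `j` with label `a` works on the nodes `x ≤ 2 * K * g`,
`K = M ^ 2 ^ s`, at the positions `a * T j + x * Tu / g` (rounded down to the mesh, at most `B`),
`Tu = T (j - 2 ^ s)` = length of a unit. Its graph has `K + 2` rows: the rows `1, …, K` are the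
unit rows, the first and the last row are shifts. Its number `q` consists of the entry node
`a0 * K`, the exit node `b0 * K`, the class `l`, the offset `o`, the number `r` of the instance and
the number of the sample (`H220.Num`).
-/

set_option autoImplicit false

namespace Vale.Agent.P315.H801

open Vale.Agent.P315.H763 Vale.Agent.P315.H220

/-- Parameters of the machines, by scale. -/
structure MP where
  /-- net points per unit length -/
  g : ℕ → ℕ
  /-- length of the blocks -/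
  Dl : ℕ → ℕ
  /-- number of classes -/
  NL : ℕ → ℕ
  /-- number of instances -/
  R : ℕ → ℕ
  /-- number of samples -/
  Sm : ℕ → ℕ
  /-- number of stored paths -/
  T : ℕ → ℕ
  /-- scaling of the harmonic numbers -/
  Sh : ℕ → ℕ
  /-- the cap is `C / 2 ^ l` units -/
  C : ℕ

/-- Number of the machines of scale `s`. -/
def MP.cnt (X : MP) (s : ℕ) : ℕ :=
  if s = 0 then 0 else cntQ (X.g s) (X.NL s) (X.Dl s) (X.R s) (X.Sm s)

/-- Division, rounded up. -/
def cdiv (x y : ℕ) : ℕ := (x + y - 1) / y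

/-- Position of the node `x`. -/
def posN (μ B lo Tu g x : ℕ) : ℕ := μ * min ((lo + x * Tu / g) / μ) (B / μ)

/-- Label of the unit with entry `u`. -/
def labN (K Tu a u : ℕ) : ℕ := max (a * K) (min (u / Tu) ((a + 2) * K - 1))

/-- Costs on the nodes: shifts in the first and in the last row. -/
def nodeD (K Tu g μ B a : ℕ) (D : ℕ → ℕ → ℕ → ℕ → ℕ → ℕ) : ℕ → ℕ → ℕ → ℕ → ℕ :=
  fun κ m x y => if 1 ≤ m ∧ m ≤ K then
      D κ (m - 1) (labN K Tu a (posN μ B (a * (K * Tu)) Tu g x))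
        (posN μ B (a * (K * Tu)) Tu g x) (posN μ B (a * (K * Tu)) Tu g y)
    else 2 * ((posN μ B (a * (K * Tu)) Tu g x - posN μ B (a * (K * Tu)) Tu g y) +
      (posN μ B (a * (K * Tu)) Tu g y - posN μ B (a * (K * Tu)) Tu g x))

/-- The stored paths of machine `q` in round `κ`. -/
def stored (K h Tu g NL Dl R T Sh C μ B q κ a : ℕ) (D : ℕ → ℕ → ℕ → ℕ → ℕ → ℕ) :
    List (List ℕ) :=
  paths Sh (cdiv (C * Tu) (2 ^ qL g NL q)) T (qA g q * K) (qB g q * K) h Dl (qO g NL Dl q)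
    (cdiv (K * Tu) (2 ^ qL g NL q)) (cdiv (K * Tu) (2 ^ (qL g NL q + 1))) (qR g NL Dl R q)
    (histOf (K + 2) (2 * K * g + 1) (nodeD K Tu g μ B a D) κ) κ

/-- The piece (label, entry, exit) from node `x` to node `y`. -/
def piece (K Tu g μ B a x y : ℕ) : ℕ × ℕ × ℕ :=
  (labN K Tu a (posN μ B (a * (K * Tu)) Tu g x), posN μ B (a * (K * Tu)) Tu g x,
    posN μ B (a * (K * Tu)) Tu g y)

/-- The piece in the unit row `m` of a node sequence. -/
def pieceOf (K Tu g μ B a : ℕ) (ns : List ℕ) (m : ℕ) : ℕ × ℕ × ℕ :=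
  piece K Tu g μ B a (min (ns.getD (m + 1) 0) (2 * K * g)) (min (ns.getD (m + 2) 0) (2 * K * g))

/-- The lane of machine `q` in round `κ`. -/
def laneN (K h Tu g NL Dl R T Sh C μ B q κ a : ℕ) (coin : ℕ → ℕ)
    (D : ℕ → ℕ → ℕ → ℕ → ℕ → ℕ) (m : ℕ) : ℕ × ℕ × ℕ :=
  pieceOf K Tu g μ B a
    ((stored K h Tu g NL Dl R T Sh C μ B q κ a D).getD (coin (qS g NL Dl R q) % T) []) m

/-- The machines. -/
def mach (X : MP) (M ℓ μ B : ℕ) : C.Mach where
  cnt := X.cnt
  lane := fun s q κ j a D coin m => laneN (M ^ 2 ^ s) (2 ^ s) (ℓ * M ^ (j - 2 ^ s)) (X.g s)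
    (X.NL s) (X.Dl s) (X.R s) (X.T s) (X.Sh s) X.C μ B q κ a coin D m

/-! ### Structural requirements -/

theorem histOf_congr {K p κ : ℕ} {D D' : ℕ → ℕ → ℕ → ℕ → ℕ}
    (h : ∀ κ' ≤ κ, ∀ m < K, ∀ x < p, ∀ y < p, D κ' m x y = D' κ' m x y) :
    histOf K p D κ = histOf K p D' κ := by
  unfold histOf tabOf
  refine List.map_congr_left fun k hk => List.map_congr_left fun m hm =>
    List.map_congr_left fun x hx => List.map_congr_left fun y hy => ?_
  exact h k (by have := List.mem_range.1 hk; omega) m (List.mem_range.1 hm) x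
    (List.mem_range.1 hx) y (List.mem_range.1 hy)

theorem labN_bound {K Tu a u : ℕ} (hK : 0 < K) :
    a * K ≤ labN K Tu a u ∧ labN K Tu a u < (a + 2) * K := by
  unfold labN
  have h1 : (a + 2) * K = a * K + 2 * K := by ring
  omega

theorem posN_le (μ B lo Tu g x : ℕ) : posN μ B lo Tu g x ≤ B := by
  unfold posN
  have h1 : min ((lo + x * Tu / g) / μ) (B / μ) ≤ B / μ := min_le_right _ _
  calc μ * min ((lo + x * Tu / g) / μ) (B / μ) ≤ μ * (B / μ) := Nat.mul_le_mul_left _ h1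
    _ ≤ B := Nat.mul_div_le B μ

theorem dvd_posN (μ B lo Tu g x : ℕ) : μ ∣ posN μ B lo Tu g x := Dvd.intro _ rfl

/-- Locality: only the costs of the rounds `κ' ≤ κ`, the rows `m < K`, the labels in
`[a K, (a + 2) K)` and mesh positions at most `B` are used. -/
theorem stored_congr {K h Tu g NL Dl R T Sh C μ B q κ a : ℕ}
    {D D' : ℕ → ℕ → ℕ → ℕ → ℕ → ℕ}
    (hD : ∀ κ' ≤ κ, ∀ m < K, ∀ x, a * K ≤ x → x < (a + 2) * K → ∀ u v, μ ∣ u → u ≤ B → μ ∣ v →
      v ≤ B → D κ' m x u v = D' κ' m x u v) :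
    stored K h Tu g NL Dl R T Sh C μ B q κ a D =
      stored K h Tu g NL Dl R T Sh C μ B q κ a D' := by
  unfold stored
  rw [histOf_congr (D := nodeD K Tu g μ B a D) (D' := nodeD K Tu g μ B a D')]
  intro κ' hκ' m _ x _ y _
  unfold nodeD
  by_cases h1 : 1 ≤ m ∧ m ≤ K
  · rw [if_pos h1, if_pos h1]
    obtain ⟨h2, h3⟩ := labN_bound (K := K) (Tu := Tu) (a := a)
      (u := posN μ B (a * (K * Tu)) Tu g x) (by omega)
    exact hD κ' hκ' _ (by omega) _ h2 h3 _ _ (dvd_posN _ _ _ _ _ _) (posN_le _ _ _ _ _ _)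
      (dvd_posN _ _ _ _ _ _) (posN_le _ _ _ _ _ _)
  · rw [if_neg h1, if_neg h1]

theorem mem_desc_one {M ℓ μ B J S H : ℕ} (hM : 0 < M) (e : ℕ) :
    ∀ j a x, a * M ^ e ≤ x → x < (a + 1) * M ^ e → x ∈ (C.boxPar M ℓ μ B J S H).desc j e a := by
  induction e with
  | zero =>
    intro j a x h1 h2
    simp only [pow_zero, mul_one] at h1 h2
    have : x = a := by omega
    simp [C.Par.desc, this]
  | succ e ih =>
    intro j a x h1 h2
    have hMe : 0 < M ^ e := pow_pos hM e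
    have e1 : a * M ^ (e + 1) = a * M * M ^ e := by ring
    have e2 : (a + 1) * M ^ (e + 1) = (a + 1) * M * M ^ e := by ring
    unfold C.Par.desc
    rw [Finset.mem_biUnion]
    refine ⟨x / M ^ e, ?_, ih _ _ _ (Nat.div_mul_le_self _ _) ?_⟩
    · show x / M ^ e ∈ Finset.Ico (a * M) ((a + 2) * M)
      rw [Finset.mem_Ico]
      constructor
      · rw [Nat.le_div_iff_mul_le hMe]; omega
      · rw [Nat.div_lt_iff_lt_mul hMe]
        refine h2.trans_le ?_
        rw [e2]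
        gcongr
        omega
    · have := Nat.div_add_mod x (M ^ e)
      have h3 := Nat.mod_lt x hMe
      have : (x / M ^ e + 1) * M ^ e = M ^ e * (x / M ^ e) + M ^ e := by ring
      omega

theorem mem_desc {M ℓ μ B J S H : ℕ} (hM : 0 < M) {e : ℕ} (he : 0 < e) (j a x : ℕ)
    (h1 : a * M ^ e ≤ x) (h2 : x < (a + 2) * M ^ e) :
    x ∈ (C.boxPar M ℓ μ B J S H).desc j e a := by
  obtain ⟨e, rfl⟩ : ∃ e', e = e' + 1 := ⟨e - 1, by omega⟩
  have hMe : 0 < M ^ e := pow_pos hM e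
  have e1 : a * M ^ (e + 1) = a * M * M ^ e := by ring
  have e2 : (a + 2) * M ^ (e + 1) = (a + 2) * M * M ^ e := by ring
  unfold C.Par.desc
  rw [Finset.mem_biUnion]
  refine ⟨x / M ^ e, ?_, mem_desc_one hM e _ _ _ (Nat.div_mul_le_self _ _) ?_⟩
  · show x / M ^ e ∈ Finset.Ico (a * M) ((a + 2) * M)
    rw [Finset.mem_Ico]
    constructor
    · rw [Nat.le_div_iff_mul_le hMe]; omega
    · rw [Nat.div_lt_iff_lt_mul hMe]; omega
  · have := Nat.div_add_mod x (M ^ e)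
    have h3 := Nat.mod_lt x hMe
    have : (x / M ^ e + 1) * M ^ e = M ^ e * (x / M ^ e) + M ^ e := by ring
    omega

theorem laneN_label {M ℓ μ B J S H s : ℕ} {K h Tu g NL Dl R T Sh Cc q κ a : ℕ} {coin : ℕ → ℕ}
    {D : ℕ → ℕ → ℕ → ℕ → ℕ → ℕ} (hM : 0 < M) (hK : K = M ^ 2 ^ s) (j m : ℕ) :
    (laneN K h Tu g NL Dl R T Sh Cc μ B q κ a coin D m).1 ∈
      (C.boxPar M ℓ μ B J S H).desc j (2 ^ s) a := by
  subst hK
  obtain ⟨h1, h2⟩ := labN_bound (K := M ^ 2 ^ s) (Tu := Tu) (a := a)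
    (u := posN μ B (a * (M ^ 2 ^ s * Tu)) Tu g
      (min (((stored (M ^ 2 ^ s) h Tu g NL Dl R T Sh Cc μ B q κ a D).getD
        (coin (qS g NL Dl R q) % T) []).getD (m + 1) 0) (2 * M ^ 2 ^ s * g))) (pow_pos hM _)
  exact mem_desc hM (by positivity) j a _ h1 h2

theorem machOK (X : MP) (M ℓ μ B J S H : ℕ) :
    C.MachOK (C.boxPar M ℓ μ B J S H) (mach X M ℓ μ B) := by
  constructor
  · intro s q κ j a D D' coin h
    funext m
    show laneN _ _ _ _ _ _ _ _ _ _ _ _ _ _ _ _ _ _ = laneN _ _ _ _ _ _ _ _ _ _ _ _ _ _ _ _ _ _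
    unfold laneN
    rw [stored_congr (D := D) (D' := D')]
    intro κ' hκ' m _ x _ _ u v _ _ _ _
    rw [h κ' hκ']
  · intro s q κ j a D coin m _ _ hm
    have hm' : m < M ^ 2 ^ s := hm
    have hK : 0 < M ^ 2 ^ s := by omega
    have hM : 0 < M := by
      by_contra h0
      obtain rfl : M = 0 := by omega
      rw [zero_pow (by positivity)] at hK
      omega
    exact laneN_label hM rfl j m
  all_goals
    intro s q κ j a D coin m
    exact ⟨Dvd.intro _ rfl, Dvd.intro _ rfl⟩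

/-- The positions of the lanes are mesh points, at most `B`. -/
theorem mach_mesh (X : MP) (M ℓ μ B s q κ j a : ℕ) (D : ℕ → ℕ → ℕ → ℕ → ℕ → ℕ) (coin : ℕ → ℕ)
    (m : ℕ) : (μ ∣ ((mach X M ℓ μ B).lane s q κ j a D coin m).2.1 ∧
      ((mach X M ℓ μ B).lane s q κ j a D coin m).2.1 ≤ B) ∧
    (μ ∣ ((mach X M ℓ μ B).lane s q κ j a D coin m).2.2 ∧
      ((mach X M ℓ μ B).lane s q κ j a D coin m).2.2 ≤ B) :=
  ⟨⟨dvd_posN _ _ _ _ _ _, posN_le _ _ _ _ _ _⟩, ⟨dvd_posN _ _ _ _ _ _, posN_le _ _ _ _ _ _⟩⟩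

/-! ### The law of the lane and the greedy property -/

/-- The edges of the stored path number `n`. -/
def pk (K h Tu g NL Dl R T Sh C μ B q κ a : ℕ) (D : ℕ → ℕ → ℕ → ℕ → ℕ → ℕ) (n : ℕ) :
    Fin (K + 2) → Fin (2 * K * g + 1) × Fin (2 * K * g + 1) :=
  edge (K + 2) (2 * K * g + 1) (Nat.succ_pos _)
    ((stored K h Tu g NL Dl R T Sh C μ B q κ a D).getD n [])

/-- The class of the blocks of machine `q`. -/
def actQ (K Tu g NL Dl μ B q a : ℕ) (D : ℕ → ℕ → ℕ → ℕ → ℕ → ℕ) : ℕ → Prop :=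
  actD (K + 2) (2 * K * g + 1) (qA g q * K) (qB g q * K) Dl (qO g NL Dl q)
    (cdiv (K * Tu) (2 ^ qL g NL q)) (cdiv (K * Tu) (2 ^ (qL g NL q + 1)))
    (nodeD K Tu g μ B a D)

instance (K Tu g NL Dl μ B q a : ℕ) (D : ℕ → ℕ → ℕ → ℕ → ℕ → ℕ) :
    DecidablePred (actQ K Tu g NL Dl μ B q a D) := by unfold actQ; infer_instance

theorem nodeD_anti {K Tu g μ B a : ℕ} {D : ℕ → ℕ → ℕ → ℕ → ℕ → ℕ}
    (hD : ∀ κ m x u v, D (κ + 1) m x u v ≤ D κ m x u v) (κ m x y : ℕ) :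
    nodeD K Tu g μ B a D (κ + 1) m x y ≤ nodeD K Tu g μ B a D κ m x y := by
  unfold nodeD
  split_ifs
  · exact hD _ _ _ _ _
  · exact le_rfl

theorem exit_lt (K g q : ℕ) : qB g q * K < 2 * K * g + 1 := by
  have h : qB g q ≤ 2 * g := by
    have := Nat.mod_lt (q / (g + 1)) (show 0 < 2 * g + 1 by omega)
    unfold qB
    omega
  calc qB g q * K ≤ 2 * g * K := Nat.mul_le_mul_right _ h
    _ = 2 * K * g := by ring
    _ < 2 * K * g + 1 := Nat.lt_succ_self _

theorem entry_lt (K g q : ℕ) : qA g q * K < 2 * K * g + 1 := by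
  have h : qA g q ≤ g := by
    have := Nat.mod_lt q (show 0 < g + 1 by omega)
    unfold qA
    omega
  calc qA g q * K ≤ g * K := Nat.mul_le_mul_right _ h
    _ ≤ 2 * (K * g) := by rw [Nat.mul_comm g K]; omega
    _ = 2 * K * g := by ring
    _ < 2 * K * g + 1 := Nat.lt_succ_self _

/-- **The stored paths are greedy** for 519's costs of the instance with start block `j1`. -/
theorem pk_greedy {K h Tu g NL Dl R T Sh C μ B q κ a j1 : ℕ} {D : ℕ → ℕ → ℕ → ℕ → ℕ → ℕ}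
    (hD : ∀ κ m x u v, D (κ + 1) m x u v ≤ D κ m x u v) (hSh : 0 < Sh)
    (hcap : 0 < cdiv (C * Tu) (2 ^ qL g NL q)) (hh : 0 < h) (hDl : 0 < Dl)
    (hj : j1 ≤ blk Dl (qO g NL Dl q) κ)
    (hr : qR g NL Dl R q = rk (actQ K Tu g NL Dl μ B q a D) j1) :
    H782.Greedy (H782.harm Sh)
      (H519.Lst (Dr (K + 2) (2 * K * g + 1) (nodeD K Tu g μ B a D))
        (cdiv (C * Tu) (2 ^ qL g NL q) : ℕ) (qO g NL Dl q) Dl h (actQ K Tu g NL Dl μ B q a D) j1 κ)
      (H763.paths (K + 2) (2 * K * g + 1) (qA g q * K) (qB g q * K)) T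
      (pk K h Tu g NL Dl R T Sh C μ B q κ a D) := by
  unfold pk stored
  rw [hr]
  exact paths_greedy (nodeD_anti hD) hSh hcap (Nat.succ_pos _) (entry_lt K g q) (exit_lt K g q)
    (Nat.succ_pos _) hh hDl hj

theorem nodes_spec {K h Tu g NL Dl R T Sh C μ B q κ a n : ℕ} {D : ℕ → ℕ → ℕ → ℕ → ℕ → ℕ}
    (hn : n < T) : ∃ f : ℕ → ℕ,
      (stored K h Tu g NL Dl R T Sh C μ B q κ a D).getD n [] = (List.range (K + 2 + 1)).map f ∧
      f 0 = qA g q * K ∧ f (K + 2) = qB g q * K ∧ ∀ i, i ≤ K + 2 → f i < 2 * K * g + 1 := by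
  unfold stored
  set hist := histOf (K + 2) (2 * K * g + 1) (nodeD K Tu g μ B a D) κ with hhist
  set ps := past (qA g q * K) (qB g q * K) h Dl (qO g NL Dl q)
    (cdiv (K * Tu) (2 ^ qL g NL q)) (cdiv (K * Tu) (2 ^ (qL g NL q + 1))) (qR g NL Dl R q)
    hist κ with hps
  set Li := linT Sh (cdiv (C * Tu) (2 ^ qL g NL q)) h hist κ ps with hLi
  have h0 : Li = tabOf (K + 2) (2 * K * g + 1)
      fun m u v => lin Sh (cdiv (C * Tu) (2 ^ qL g NL q)) h hist κ ps m u v := by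
    rw [hLi, hhist]
    exact linT_histOf (Nat.succ_pos _) _ _
  have hlen : Li.length = K + 2 := by rw [h0]; exact tabOf_length _ _ _
  have hnn : nn Li = 2 * K * g + 1 := by rw [h0]; exact nn_tabOf (Nat.succ_pos _) _
  have hL : Li ≠ [] := List.length_pos_iff.1 (by omega)
  obtain ⟨f, hf, f0, fm, fj, -⟩ := picks_spec Sh (cdiv (C * Tu) (2 ^ qL g NL q)) (qA g q * K)
    (qB g q * K) T Li hL (by rw [hnn]; exact entry_lt K g q) (by rw [hnn]; exact exit_lt K g q) hn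
  rw [hlen] at hf fm fj
  rw [hnn] at fj
  exact ⟨f, hf, f0, fm, fj⟩

/-- **The lane is the stored path number `coin % T`**, piece by piece. -/
theorem laneN_eq {K h Tu g NL Dl R T Sh C μ B q κ a m : ℕ} {coin : ℕ → ℕ}
    {D : ℕ → ℕ → ℕ → ℕ → ℕ → ℕ} (hT : 0 < T) (hm : m < K) :
    laneN K h Tu g NL Dl R T Sh C μ B q κ a coin D m =
      piece K Tu g μ B a
        (pk K h Tu g NL Dl R T Sh C μ B q κ a D (coin (qS g NL Dl R q) % T) ⟨m + 1, by omega⟩).1
        (pk K h Tu g NL Dl R T Sh C μ B q κ a D (coin (qS g NL Dl R q) % T)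
          ⟨m + 1, by omega⟩).2 := by
  have hn : coin (qS g NL Dl R q) % T < T := Nat.mod_lt _ hT
  obtain ⟨f, hf, -, -, fj⟩ := nodes_spec (K := K) (h := h) (Tu := Tu) (g := g) (NL := NL)
    (Dl := Dl) (R := R) (Sh := Sh) (C := C) (μ := μ) (B := B) (q := q) (κ := κ) (a := a)
    (D := D) hn
  unfold laneN pk pieceOf
  rw [hf]
  have h1 := fj (m + 1) (by omega)
  have h2 := fj (m + 2) (by omega)
  have e1 : ((List.range (K + 2 + 1)).map f).getD (m + 1) 0 = f (m + 1) :=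
    getD_map_range' _ _ (by omega)
  have e2 : ((List.range (K + 2 + 1)).map f).getD (m + 2) 0 = f (m + 2) :=
    getD_map_range' _ _ (by omega)
  have e3 : ((edge (K + 2) (2 * K * g + 1) (Nat.succ_pos _) ((List.range (K + 2 + 1)).map f)
      ⟨m + 1, by omega⟩).1 : ℕ) = f (m + 1) := by
    show ((List.range (K + 2 + 1)).map f).getD (m + 1) 0 % (2 * K * g + 1) = _
    rw [e1, Nat.mod_eq_of_lt h1]
  have e4 : ((edge (K + 2) (2 * K * g + 1) (Nat.succ_pos _) ((List.range (K + 2 + 1)).map f)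
      ⟨m + 1, by omega⟩).2 : ℕ) = f (m + 2) := by
    show ((List.range (K + 2 + 1)).map f).getD (m + 1 + 1) 0 % (2 * K * g + 1) = _
    rw [show m + 1 + 1 = m + 2 from rfl, e2, Nat.mod_eq_of_lt h2]
  rw [e1, e2, e3, e4, Nat.min_eq_left (by omega), Nat.min_eq_left (by omega)]

end Vale.Agent.P315.H801
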