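import Vale.Agent.P315.H801.Lane
import Vale.Agent.P315.H519.Runs
import Vale.Agent.P315.H763.Bridge

/-!
P315 (helper801): the start-block machine on lists satisfies the hypotheses of `H519.h3b_start`.

`tabOf K p f`, `histOf K p D t`: the tables of the function `D` (round, row, entry node, exit node).
`actD`: the blocks of the class; `rk act j1`: the number of the instance with start block `j1`.
-/

set_option autoImplicit false

namespace Vale.Agent.P315.H801

open Vale.Agent.P315.H763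

/-- Table of `f` (row, entry node, exit node) with `K` rows and `p` nodes. -/
def tabOf (K p : ℕ) (f : ℕ → ℕ → ℕ → ℕ) : Tab :=
  (List.range K).map fun m => (List.range p).map fun u => (List.range p).map fun v => f m u v

/-- Tables of the rounds `0, …, t`. -/
def histOf (K p : ℕ) (D : ℕ → ℕ → ℕ → ℕ → ℕ) (t : ℕ) : List Tab :=
  (List.range (t + 1)).map fun k => tabOf K p (D k)

theorem tabOf_length (K p : ℕ) (f : ℕ → ℕ → ℕ → ℕ) : (tabOf K p f).length = K := by
  simp [tabOf]

theorem nn_tabOf {K p : ℕ} (hK : 0 < K) (f : ℕ → ℕ → ℕ → ℕ) : nn (tabOf K p f) = p := by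
  obtain ⟨K, rfl⟩ : ∃ k, K = k + 1 := ⟨K - 1, by omega⟩
  simp [nn, tabOf, List.range_succ_eq_map]

theorem ent3_tabOf {K p m u v : ℕ} (f : ℕ → ℕ → ℕ → ℕ) (hm : m < K) (hu : u < p) (hv : v < p) :
    ent3 (tabOf K p f) m u v = f m u v := by
  unfold ent3 ent2 tabOf
  rw [getD_map_range _ _ _ hm, getD_map_range _ _ _ hu, getD_map_range _ _ _ hv]

theorem tabAt_histOf {K p k t : ℕ} (D : ℕ → ℕ → ℕ → ℕ → ℕ) (h : k ≤ t) :
    tabAt (histOf K p D t) k = tabOf K p (D k) := by
  unfold tabAt histOf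
  exact getD_map_range _ _ _ (by omega)

/-- Value of the cheapest path from `a` to `b`. -/
def WD (K p a b : ℕ) (f : ℕ → ℕ → ℕ → ℕ) : ℕ := ((spRun a (tabOf K p f)).getD b (0, [])).1

theorem W_histOf {K p k t : ℕ} (a b : ℕ) (D : ℕ → ℕ → ℕ → ℕ → ℕ) (h : k ≤ t) :
    W a b (histOf K p D t) k = WD K p a b (D k) := by
  unfold W WD
  rw [tabAt_histOf D h]

/-- The block `β` has the class `[c1, c0)`. -/
def actD (K p a b Dl o c0 c1 : ℕ) (D : ℕ → ℕ → ℕ → ℕ → ℕ) (β : ℕ) : Prop :=
  c1 ≤ WD K p a b (D (blo Dl o β)) - WD K p a b (D (blo Dl o (β + 1))) ∧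
    WD K p a b (D (blo Dl o β)) - WD K p a b (D (blo Dl o (β + 1))) < c0

instance (K p a b Dl o c0 c1 : ℕ) (D : ℕ → ℕ → ℕ → ℕ → ℕ) :
    DecidablePred (actD K p a b Dl o c0 c1 D) := fun β => by unfold actD; infer_instance

theorem blo_le {Dl o β t : ℕ} (h : β ≤ blk Dl o t) : blo Dl o β ≤ t := by
  unfold blo
  unfold blk at h
  have h1 := Nat.mul_le_mul_right Dl h
  have h2 := Nat.div_mul_le_self (t + o) Dl
  omega

theorem clsL_histOf {K p a b Dl o c0 c1 t : ℕ} (D : ℕ → ℕ → ℕ → ℕ → ℕ) :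
    clsL a b Dl o c0 c1 (histOf K p D t) t =
      (List.range (blk Dl o t)).filter fun β => decide (actD K p a b Dl o c0 c1 D β) := by
  unfold clsL
  refine List.filter_congr fun β hβ => ?_
  have hβ' := List.mem_range.1 hβ
  rw [Bool.eq_iff_iff, decide_eq_true_eq]
  unfold isCls actD
  rw [W_histOf a b D (blo_le hβ'.le), W_histOf a b D (blo_le (β := β + 1) hβ'), Bool.and_eq_true,
    decide_eq_true_eq, decide_eq_true_eq]

/-- Number of the instance with start block `j1`. -/
def rk (act : ℕ → Prop) [DecidablePred act] (j1 : ℕ) : ℕ :=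
  ((List.range j1).filter fun j => decide (act j)).length

theorem mem_drop_rk {act : ℕ → Prop} [DecidablePred act] {j1 n x : ℕ} (h : j1 ≤ n) :
    x ∈ ((List.range n).filter fun j => decide (act j)).drop (rk act j1) ↔
      x < n ∧ act x ∧ j1 ≤ x := by
  obtain ⟨d, rfl⟩ := Nat.exists_eq_add_of_le h
  unfold rk
  rw [List.range_add, List.filter_append, List.drop_left' rfl]
  simp only [List.mem_filter, List.mem_map, List.mem_range, decide_eq_true_eq]
  constructor
  · rintro ⟨⟨y, hy, rfl⟩, hx⟩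
    exact ⟨by omega, hx, by omega⟩
  · rintro ⟨h1, h2, h3⟩
    exact ⟨⟨x - j1, by omega, by omega⟩, h2⟩

theorem win_iff {h Dl o x : ℕ} (hh : 0 < h) (hDl : 0 < Dl) :
    x + h ≤ blo Dl o (blk Dl o x + 1) ↔ H519.win o Dl h x := by
  unfold H519.win blo blk
  set q := (x + o) / Dl with hq
  constructor
  · intro h1
    have h2 : x + (h - 1) + o < (q + 1) * Dl := by omega
    have h3 : (x + (h - 1) + o) / Dl < q + 1 := (Nat.div_lt_iff_lt_mul hDl).2 h2
    have h4 : q ≤ (x + (h - 1) + o) / Dl := Nat.div_le_div_right (by omega)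
    omega
  · intro h1
    have h2 : (x + (h - 1) + o) / Dl < q + 1 := by omega
    have h3 := (Nat.div_lt_iff_lt_mul hDl).1 h2
    omega

theorem past_nodup (a b h Dl o c0 c1 r : ℕ) (hist : List Tab) (κ : ℕ) :
    (past a b h Dl o c0 c1 r hist κ).Nodup := List.nodup_range.filter _

theorem past_spec {K p a b h Dl o c0 c1 t j1 : ℕ} (D : ℕ → ℕ → ℕ → ℕ → ℕ) (hh : 0 < h)
    (hDl : 0 < Dl) (hj : j1 ≤ blk Dl o t) :
    (past a b h Dl o c0 c1 (rk (actD K p a b Dl o c0 c1 D) j1) (histOf K p D t) t).toFinset =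
      H519.hist o Dl h (actD K p a b Dl o c0 c1 D) j1 t := by
  ext x
  rw [List.mem_toFinset]
  unfold past H519.hist
  rw [clsL_histOf, List.mem_filter, Finset.mem_filter, Finset.mem_range, List.mem_range]
  refine and_congr_right fun hx => ?_
  rw [Bool.and_eq_true, Bool.and_eq_true, Bool.or_eq_true, decide_eq_true_eq, decide_eq_true_eq,
    decide_eq_true_eq, decide_eq_true_eq, mem_drop_rk hj, win_iff hh hDl]
  refine and_congr_right fun _ => and_congr_right fun _ => ?_
  have hb : H519.blk o Dl x = blk Dl o x := rfl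
  have hb' : H519.blk o Dl t = blk Dl o t := rfl
  have hxt : blk Dl o x ≤ blk Dl o t := Nat.div_le_div_right (by omega)
  rw [hb, hb']
  constructor
  · rintro (h1 | ⟨-, h2, h3⟩)
    · exact Or.inr h1
    · exact Or.inl ⟨h3, h2⟩
  · rintro (⟨h1, h2⟩ | h1)
    · rcases hxt.eq_or_lt with h3 | h3
      · exact Or.inl h3
      · exact Or.inr ⟨h3, h2, h1⟩
    · exact Or.inl h1

theorem add_h_le {o Dl h j1 t x : ℕ} {act : ℕ → Prop} [DecidablePred act] (hh : 0 < h)
    (hx : x ∈ H519.hist o Dl h act j1 t) : x + h ≤ t := by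
  unfold H519.hist at hx
  rw [Finset.mem_filter, Finset.mem_range] at hx
  obtain ⟨h1, h2, -⟩ := hx
  have h3 := Nat.div_add_mod x h
  have h4 := Nat.div_add_mod t h
  by_contra hc
  have h5 : x / h = t / h := by
    have h6 : x / h ≤ t / h := Nat.div_le_div_right h1.le
    have h7 : t / h < x / h + 1 := by
      rw [Nat.div_lt_iff_lt_mul hh]
      have : (x / h + 1) * h = h * (x / h) + h := by ring
      rw [this]
      have := Nat.mod_lt x hh
      by_contra hc2
      have h8 : h * (x / h) + h ≤ t := by omega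
      have h9 : x / h + 1 ≤ t / h := by
        rw [Nat.le_div_iff_mul_le hh]
        have : (x / h + 1) * h = h * (x / h) + h := by ring
        omega
      have h10 := Nat.mul_le_mul_left h h9
      have : h * (x / h + 1) = h * (x / h) + h := by ring
      omega
    omega
  rw [h5, h2] at h3
  omega

/-- Real costs: round, row, edge. -/
def Dr (K p : ℕ) (D : ℕ → ℕ → ℕ → ℕ → ℕ) (t : ℕ) (i : Fin K) (e : Fin p × Fin p) : ℝ :=
  (D t i e.1 e.2 : ℝ)

theorem anti_add {D : ℕ → ℕ → ℕ → ℕ → ℕ} (hD : ∀ t m u v, D (t + 1) m u v ≤ D t m u v)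
    (t m u v n : ℕ) : D (t + n) m u v ≤ D t m u v := by
  induction n with
  | zero => exact le_rfl
  | succ n ih => exact (hD (t + n) m u v).trans ih

theorem lin_cast {K p S cap h t : ℕ} {D : ℕ → ℕ → ℕ → ℕ → ℕ}
    (hD : ∀ t m u v, D (t + 1) m u v ≤ D t m u v) {ps : List ℕ} (hps : ps.Nodup)
    (hle : ∀ x ∈ ps, x + h ≤ t) (i : Fin K) (e : Fin p × Fin p) :
    (lin S cap h (histOf K p D t) t ps i e.1 e.2 : ℝ) =
      S * (2 * (∑ k ∈ ps.toFinset, Dr K p D k i e + Dr K p D t i e) -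
        ∑ k ∈ ps.toFinset, H330.wcl (cap : ℝ) (Dr K p D k) (Dr K p D (k + h)) i e) := by
  have h1 : lin S cap h (histOf K p D t) t ps i e.1 e.2 = S * (2 * D t i e.1 e.2 +
      ∑ k ∈ ps.toFinset, (2 * D k i e.1 e.2 - min (D k i e.1 e.2 - D (k + h) i e.1 e.2) cap)) := by
    unfold lin
    rw [List.sum_toFinset _ hps, tabAt_histOf D le_rfl, ent3_tabOf _ i.2 e.1.2 e.2.2]
    congr 3
    refine List.map_congr_left fun k hk => ?_
    have := hle k hk
    rw [tabAt_histOf D (by omega), tabAt_histOf D this, ent3_tabOf _ i.2 e.1.2 e.2.2,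
      ent3_tabOf _ i.2 e.1.2 e.2.2]
  rw [h1]
  push_cast
  have h2 : ∀ k ∈ ps.toFinset,
      ((2 * D k i e.1 e.2 - min (D k i e.1 e.2 - D (k + h) i e.1 e.2) cap : ℕ) : ℝ) =
      2 * Dr K p D k i e - H330.wcl (cap : ℝ) (Dr K p D k) (Dr K p D (k + h)) i e := by
    intro k _
    have h3 := anti_add hD k i e.1 e.2 h
    rw [Nat.cast_sub (by omega), Nat.cast_min, Nat.cast_sub h3]
    push_cast
    rfl
  rw [Finset.sum_congr rfl h2, Finset.sum_sub_distrib, ← Finset.mul_sum]
  unfold Dr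
  ring

theorem linT_histOf {K p S cap h t : ℕ} (hK : 0 < K) (D : ℕ → ℕ → ℕ → ℕ → ℕ) (ps : List ℕ) :
    linT S cap h (histOf K p D t) t ps =
      tabOf K p fun m u v => lin S cap h (histOf K p D t) t ps m u v := by
  unfold linT
  rw [tabAt_histOf D le_rfl, tabOf_length, nn_tabOf hK]
  rfl

theorem picks_greedy' {S Q : ℕ} (hS : 0 < S) (hQ : 0 < Q) (s t T : ℕ)
    (Li : Tab) {K p : ℕ} (hK : Li.length = K) (hp : nn Li = p) (hK0 : 0 < K) (hs : s < p)
    (ht : t < p) (hp0 : 0 < p) :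
    H782.Greedy (H782.harm S)
      (fun (i : Fin K) (e : Fin p × Fin p) => ((ent3 Li i e.1 e.2 : ℕ) : ℝ) / (S * Q))
      (H763.paths K p s t) T (fun j => edge K p hp0 ((picks S Q s t T Li).getD j [])) := by
  subst hK
  subst hp
  have hL : Li ≠ [] := List.length_pos_iff.1 hK0
  have h := picks_greedy hS hQ s t T Li hL hs ht
  simpa using h

/-- **The stored paths of the instance with start block `j1` are greedy for 519's costs.** -/
theorem paths_greedy {K p S cap T a b h Dl o c0 c1 t j1 : ℕ} {D : ℕ → ℕ → ℕ → ℕ → ℕ}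
    (hD : ∀ t m u v, D (t + 1) m u v ≤ D t m u v) (hS : 0 < S) (hcap : 0 < cap) (hK : 0 < K)
    (ha : a < p) (hb : b < p) (hp0 : 0 < p) (hh : 0 < h) (hDl : 0 < Dl)
    (hj : j1 ≤ blk Dl o t) :
    H782.Greedy (H782.harm S)
      (H519.Lst (Dr K p D) cap o Dl h (actD K p a b Dl o c0 c1 D) j1 t) (H763.paths K p a b) T
      (fun n => edge K p hp0 ((paths S cap T a b h Dl o c0 c1
        (rk (actD K p a b Dl o c0 c1 D) j1) (histOf K p D t) t).getD n [])) := by
  set ps := past a b h Dl o c0 c1 (rk (actD K p a b Dl o c0 c1 D) j1) (histOf K p D t) t with hps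
  have hspec : ps.toFinset = H519.hist o Dl h (actD K p a b Dl o c0 c1 D) j1 t :=
    past_spec D hh hDl hj
  have hnd : ps.Nodup := past_nodup _ _ _ _ _ _ _ _ _ _
  have hle : ∀ x ∈ ps, x + h ≤ t := fun x hx =>
    add_h_le (act := actD K p a b Dl o c0 c1 D) hh (by rw [← hspec]; exact List.mem_toFinset.2 hx)
  have hg := picks_greedy' hS hcap a b T (linT S cap h (histOf K p D t) t ps)
    (K := K) (p := p) (by rw [linT_histOf hK]; exact tabOf_length _ _ _)
    (by rw [linT_histOf hK]; exact nn_tabOf hK _) hK ha hb hp0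
  have hS' : (S : ℝ) ≠ 0 := by exact_mod_cast hS.ne'
  have hc' : (cap : ℝ) ≠ 0 := by exact_mod_cast hcap.ne'
  have hL : (fun (i : Fin K) (e : Fin p × Fin p) =>
      ((ent3 (linT S cap h (histOf K p D t) t ps) i e.1 e.2 : ℕ) : ℝ) / (S * cap)) =
      H519.Lst (Dr K p D) cap o Dl h (actD K p a b Dl o c0 c1 D) j1 t := by
    funext i e
    rw [linT_histOf hK, ent3_tabOf _ i.2 e.1.2 e.2.2, lin_cast hD hnd hle i e, hspec]
    unfold H519.Lst
    field_simp
  rw [hL] at hg
  exact hg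

end Vale.Agent.P315.H801
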