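import Vale.Agent.P315.H763.SolverPT
import Vale.Agent.P315.H782.GreedyMD
import Vale.Agent.P315.H155.Auto

/-!
P315 (helper801): the lane of a start-block machine as a pure function on lists of naturals.

A `Tab` is the table of the unit costs of one round: row, entry node, exit node. `hist` is the list
of the tables of the rounds `0, …, κ`. The blocks are the intervals
`[β * Dl - o, (β + 1) * Dl - o)`; a block has the class of the machine if the decrease of the value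
of the cheapest path is in `[c1, c0)`. The machine number `r` remembers the blocks of its class
from the `r`-th one on, and the current block.
-/

set_option autoImplicit false

namespace Vale.Agent.P315.H801

open Vale.Agent.Lib.PolyTime Vale.Agent.P315.H763

/-- Unit costs of one round: row, entry node, exit node. -/
abbrev Tab := List (List (List ℕ))

/-- Table of the round `κ`. -/
def tabAt (hist : List Tab) (κ : ℕ) : Tab := hist.getD κ []

/-- Value of the cheapest path from `a` to `b` in round `κ`. -/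
def W (a b : ℕ) (hist : List Tab) (κ : ℕ) : ℕ :=
  ((spRun a (tabAt hist κ)).getD b (0, [])).1

/-- First round of the block `β`. -/
def blo (Dl o β : ℕ) : ℕ := β * Dl - o

/-- The block `β` has the class `[c1, c0)`. -/
def isCls (a b Dl o c0 c1 : ℕ) (hist : List Tab) (β : ℕ) : Bool :=
  decide (c1 ≤ W a b hist (blo Dl o β) - W a b hist (blo Dl o (β + 1))) &&
    decide (W a b hist (blo Dl o β) - W a b hist (blo Dl o (β + 1)) < c0)

/-- Number of the block of the round `κ`. -/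
def blk (Dl o κ : ℕ) : ℕ := (κ + o) / Dl

/-- The blocks before the round `κ` which have the class. -/
def clsL (a b Dl o c0 c1 : ℕ) (hist : List Tab) (κ : ℕ) : List ℕ :=
  (List.range (blk Dl o κ)).filter fun β => isCls a b Dl o c0 c1 hist β

/-- The past rounds used by the machine number `r` in round `κ`: the rounds `κ'` of the same phase
such that `[κ', κ' + h]` is inside the current block or inside a remembered block. -/
def past (a b h Dl o c0 c1 r : ℕ) (hist : List Tab) (κ : ℕ) : List ℕ :=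
  (List.range κ).filter fun κ' => decide (κ' % h = κ % h) &&
    (decide (κ' + h ≤ blo Dl o (blk Dl o κ' + 1)) &&
      (decide (blk Dl o κ' = blk Dl o κ) ||
        decide (blk Dl o κ' ∈ (clsL a b Dl o c0 c1 hist κ).drop r)))

/-- Linear cost of the edge `(u, v)` in row `m`. -/
def lin (S cap h : ℕ) (hist : List Tab) (κ : ℕ) (ps : List ℕ) (m u v : ℕ) : ℕ :=
  S * (2 * ent3 (tabAt hist κ) m u v + (ps.map fun κ' => 2 * ent3 (tabAt hist κ') m u v -
    min (ent3 (tabAt hist κ') m u v - ent3 (tabAt hist (κ' + h)) m u v) cap).sum)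

/-- Table of the linear costs. -/
def linT (S cap h : ℕ) (hist : List Tab) (κ : ℕ) (ps : List ℕ) : Tab :=
  (List.range (tabAt hist κ).length).map fun m => (List.range (nn (tabAt hist κ))).map fun u =>
    (List.range (nn (tabAt hist κ))).map fun v => lin S cap h hist κ ps m u v

/-- The stored paths of the machine in round `κ`. -/
def paths (S cap T a b h Dl o c0 c1 r : ℕ) (hist : List Tab) (κ : ℕ) : List (List ℕ) :=
  picks S cap a b T (linT S cap h hist κ (past a b h Dl o c0 c1 r hist κ))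

/-- The lane: the nodes of the path with number `coin % T`. -/
def lane (S cap T a b h Dl o c0 c1 r coin : ℕ) (hist : List Tab) (κ : ℕ) : List ℕ :=
  (paths S cap T a b h Dl o c0 c1 r hist κ).getD (coin % T) []

/-! ### Polynomial time -/

section PT

variable {α : Type*} [Enc α]

@[fun_prop]
theorem PT_ent3 {ws : α → Tab} {i u v : α → ℕ} (hw : PT ∅ ws) (hi : PT ∅ i)
    (hu : PT ∅ u) (hv : PT ∅ v) : PT ∅ (fun a => ent3 (ws a) (i a) (u a) (v a)) :=
  pt_ent3 hw hi hu hv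

@[fun_prop]
theorem PT_nn {ws : α → Tab} (hw : PT ∅ ws) : PT ∅ (fun a => nn (ws a)) := pt_nn hw

@[fun_prop]
theorem PBd_nn {ws : α → Tab} (hw : PT ∅ ws) : PBd (fun a => nn (ws a)) := pbd_nn hw

@[fun_prop]
theorem PT_spRun {s : α → ℕ} {ws : α → Tab} (hs : PT ∅ s) (hw : PT ∅ ws) :
    PT ∅ (fun a => spRun (s a) (ws a)) := pt_spRun hs hw

@[fun_prop]
theorem PT_picks {S Q s t T : α → ℕ} {Li : α → Tab} (hS : PT ∅ S) (hQ : PT ∅ Q)
    (hs : PT ∅ s) (ht : PT ∅ t) (hT : PT ∅ T) (hTb : PBd T) (hL : PT ∅ Li) :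
    PT ∅ (fun a => picks (S a) (Q a) (s a) (t a) (T a) (Li a)) := pt_picks hS hQ hs ht hT hTb hL

@[fun_prop]
theorem PT_tabAt {hist : α → List Tab} {κ : α → ℕ} (hh : PT ∅ hist) (hκ : PT ∅ κ) :
    PT ∅ (fun a => tabAt (hist a) (κ a)) := by unfold tabAt; fun_prop

@[fun_prop]
theorem PT_W {a b : α → ℕ} {hist : α → List Tab} {κ : α → ℕ} (ha : PT ∅ a) (hb : PT ∅ b)
    (hh : PT ∅ hist) (hκ : PT ∅ κ) : PT ∅ (fun x => W (a x) (b x) (hist x) (κ x)) := by
  unfold W; fun_prop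

@[fun_prop]
theorem PT_blo {Dl o β : α → ℕ} (h1 : PT ∅ Dl) (h2 : PT ∅ o) (h3 : PT ∅ β) :
    PT ∅ (fun x => blo (Dl x) (o x) (β x)) := by unfold blo; fun_prop

@[fun_prop]
theorem PT_blk {Dl o κ : α → ℕ} (h1 : PT ∅ Dl) (h2 : PT ∅ o) (h3 : PT ∅ κ) :
    PT ∅ (fun x => blk (Dl x) (o x) (κ x)) := by unfold blk; fun_prop

@[fun_prop]
theorem PBd_blk {Dl o κ : α → ℕ} (h2 : PBd o) (h3 : PBd κ) :
    PBd (fun x => blk (Dl x) (o x) (κ x)) := by unfold blk; fun_prop

@[fun_prop]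
theorem PT_isCls {a b Dl o c0 c1 β : α → ℕ} {hist : α → List Tab} (ha : PT ∅ a) (hb : PT ∅ b)
    (h1 : PT ∅ Dl) (h2 : PT ∅ o) (h3 : PT ∅ c0) (h4 : PT ∅ c1) (hh : PT ∅ hist) (hβ : PT ∅ β) :
    PT ∅ (fun x => isCls (a x) (b x) (Dl x) (o x) (c0 x) (c1 x) (hist x) (β x)) := by
  unfold isCls; fun_prop

@[fun_prop]
theorem PT_clsL {a b Dl o c0 c1 κ : α → ℕ} {hist : α → List Tab} (ha : PT ∅ a) (hb : PT ∅ b)
    (h1 : PT ∅ Dl) (h2 : PT ∅ o) (h2b : PBd o) (h3 : PT ∅ c0) (h4 : PT ∅ c1) (hh : PT ∅ hist)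
    (hκ : PT ∅ κ) (hκb : PBd κ) :
    PT ∅ (fun x => clsL (a x) (b x) (Dl x) (o x) (c0 x) (c1 x) (hist x) (κ x)) := by
  unfold clsL; fun_prop

@[fun_prop]
theorem PT_past {a b h Dl o c0 c1 r κ : α → ℕ} {hist : α → List Tab} (ha : PT ∅ a) (hb : PT ∅ b)
    (h0 : PT ∅ h) (h1 : PT ∅ Dl) (h2 : PT ∅ o) (h2b : PBd o) (h3 : PT ∅ c0) (h4 : PT ∅ c1)
    (h5 : PT ∅ r) (hh : PT ∅ hist) (hκ : PT ∅ κ) (hκb : PBd κ) :
    PT ∅ (fun x => past (a x) (b x) (h x) (Dl x) (o x) (c0 x) (c1 x) (r x) (hist x) (κ x)) := by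
  unfold past; fun_prop

@[fun_prop]
theorem PT_lin {S cap h κ m u v : α → ℕ} {hist : α → List Tab} {ps : α → List ℕ} (hS : PT ∅ S)
    (hc : PT ∅ cap) (h0 : PT ∅ h) (hh : PT ∅ hist) (hκ : PT ∅ κ) (hp : PT ∅ ps) (hm : PT ∅ m)
    (hu : PT ∅ u) (hv : PT ∅ v) :
    PT ∅ (fun x => lin (S x) (cap x) (h x) (hist x) (κ x) (ps x) (m x) (u x) (v x)) := by
  unfold lin; fun_prop

@[fun_prop]
theorem PT_linT {S cap h κ : α → ℕ} {hist : α → List Tab} {ps : α → List ℕ} (hS : PT ∅ S)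
    (hc : PT ∅ cap) (h0 : PT ∅ h) (hh : PT ∅ hist) (hκ : PT ∅ κ) (hp : PT ∅ ps) :
    PT ∅ (fun x => linT (S x) (cap x) (h x) (hist x) (κ x) (ps x)) := by
  unfold linT; fun_prop

@[fun_prop]
theorem PT_paths {S cap T a b h Dl o c0 c1 r κ : α → ℕ} {hist : α → List Tab} (hS : PT ∅ S)
    (hc : PT ∅ cap) (hT : PT ∅ T) (hTb : PBd T) (ha : PT ∅ a) (hb : PT ∅ b)
    (h0 : PT ∅ h) (h1 : PT ∅ Dl) (h2 : PT ∅ o) (h2b : PBd o) (h3 : PT ∅ c0) (h4 : PT ∅ c1)
    (h5 : PT ∅ r) (hh : PT ∅ hist) (hκ : PT ∅ κ) (hκb : PBd κ) :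
    PT ∅ (fun x => paths (S x) (cap x) (T x) (a x) (b x) (h x) (Dl x) (o x) (c0 x) (c1 x) (r x)
      (hist x) (κ x)) := by
  unfold paths; fun_prop

@[fun_prop]
theorem PT_lane {S cap T a b h Dl o c0 c1 r coin κ : α → ℕ} {hist : α → List Tab} (hS : PT ∅ S)
    (hc : PT ∅ cap) (hT : PT ∅ T) (hTb : PBd T) (ha : PT ∅ a) (hb : PT ∅ b)
    (h0 : PT ∅ h) (h1 : PT ∅ Dl) (h2 : PT ∅ o) (h2b : PBd o) (h3 : PT ∅ c0) (h4 : PT ∅ c1)
    (h5 : PT ∅ r) (h6 : PT ∅ coin) (hh : PT ∅ hist) (hκ : PT ∅ κ) (hκb : PBd κ) :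
    PT ∅ (fun x => lane (S x) (cap x) (T x) (a x) (b x) (h x) (Dl x) (o x) (c0 x) (c1 x) (r x)
      (coin x) (hist x) (κ x)) := by
  unfold lane; fun_prop

end PT

end Vale.Agent.P315.H801
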