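import Vale.Agent.P315.H801.Mach

/-!
P315 (helper801): locality of the concrete machine, labels and positions of its lanes.
-/

set_option autoImplicit false

namespace Vale.Agent.P315.H801

open Vale.Agent.P315.H220

/-- A lane uses only the costs of the rounds `κ' ≤ κ`, the rows `m < K`, the labels in
`[a K, (a + 2) K)` and the mesh positions at most `B`. -/
theorem mach_loc (X : MP) (M ℓ μ B s q κ j a : ℕ) {D D' : ℕ → ℕ → ℕ → ℕ → ℕ → ℕ}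
    (coin : ℕ → ℕ)
    (hD : ∀ κ' ≤ κ, ∀ m < M ^ 2 ^ s, ∀ x, a * M ^ 2 ^ s ≤ x → x < (a + 2) * M ^ 2 ^ s →
      ∀ u v, μ ∣ u → u ≤ B → μ ∣ v → v ≤ B → D κ' m x u v = D' κ' m x u v) :
    (mach X M ℓ μ B).lane s q κ j a D coin = (mach X M ℓ μ B).lane s q κ j a D' coin := by
  funext m
  show laneN _ _ _ _ _ _ _ _ _ _ _ _ _ _ _ _ _ _ = laneN _ _ _ _ _ _ _ _ _ _ _ _ _ _ _ _ _ _
  unfold laneN
  rw [stored_congr hD]

/-- The labels of a lane. -/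
theorem mach_label {M : ℕ} (hM : 0 < M) (X : MP) (ℓ μ B s q κ j a : ℕ)
    (D : ℕ → ℕ → ℕ → ℕ → ℕ → ℕ) (coin : ℕ → ℕ) (m : ℕ) :
    a * M ^ 2 ^ s ≤ ((mach X M ℓ μ B).lane s q κ j a D coin m).1 ∧
      ((mach X M ℓ μ B).lane s q κ j a D coin m).1 < (a + 2) * M ^ 2 ^ s :=
  labN_bound (pow_pos hM _)

/-- The lane depends only on the coin number `qS`. -/
theorem mach_coin (X : MP) (M ℓ μ B s q κ j a : ℕ) (D : ℕ → ℕ → ℕ → ℕ → ℕ → ℕ)
    {coin coin' : ℕ → ℕ}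
    (h : coin (qS (X.g s) (X.NL s) (X.Dl s) (X.R s) q) =
      coin' (qS (X.g s) (X.NL s) (X.Dl s) (X.R s) q)) :
    (mach X M ℓ μ B).lane s q κ j a D coin = (mach X M ℓ μ B).lane s q κ j a D coin' := by
  funext m
  show laneN _ _ _ _ _ _ _ _ _ _ _ _ _ _ _ _ _ _ = laneN _ _ _ _ _ _ _ _ _ _ _ _ _ _ _ _ _ _
  unfold laneN
  rw [h]

end Vale.Agent.P315.H801
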