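import Vale.Agent.P315.H801.Mach
import Vale.Agent.P315.H220.WD

/-!
P315 (helper801): the lane of the concrete machine is computable in polynomial time, in closure
form: the unit costs `D` and the coins are functions which are computable in polynomial time.
-/

set_option autoImplicit false

namespace Vale.Agent.P315.H801

open Vale.Agent.Lib.PolyTime Vale.Agent.P315.H763 Vale.Agent.P315.H155 Vale.Agent.P315.H220

variable {α : Type*} [Enc α]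

@[fun_prop]
theorem PT_cdiv {x y : α → ℕ} (hx : PT ∅ x) (hy : PT ∅ y) : PT ∅ (fun a => cdiv (x a) (y a)) := by
  unfold cdiv; fun_prop

@[fun_prop]
theorem PT_posN {μ B lo Tu g x : α → ℕ} (h1 : PT ∅ μ) (h2 : PT ∅ B) (h3 : PT ∅ lo) (h4 : PT ∅ Tu)
    (h5 : PT ∅ g) (h6 : PT ∅ x) :
    PT ∅ (fun a => posN (μ a) (B a) (lo a) (Tu a) (g a) (x a)) := by
  unfold posN; fun_prop

@[fun_prop]
theorem PT_labN {K Tu a u : α → ℕ} (h1 : PT ∅ K) (h2 : PT ∅ Tu) (h3 : PT ∅ a) (h4 : PT ∅ u) :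
    PT ∅ (fun x => labN (K x) (Tu x) (a x) (u x)) := by
  unfold labN; fun_prop

theorem PT_nodeD {K Tu g μ B a : α → ℕ} {D : α → ℕ → ℕ → ℕ → ℕ → ℕ → ℕ} (hK : PT ∅ K)
    (hTu : PT ∅ Tu) (hg : PT ∅ g) (hμ : PT ∅ μ) (hB : PT ∅ B) (ha : PT ∅ a)
    (hD : PT ∅ (fun x : α × ℕ × ℕ × ℕ × ℕ × ℕ =>
      D x.1 x.2.1 x.2.2.1 x.2.2.2.1 x.2.2.2.2.1 x.2.2.2.2.2)) :
    PT ∅ (fun x : α × ℕ × ℕ × ℕ × ℕ =>
      nodeD (K x.1) (Tu x.1) (g x.1) (μ x.1) (B x.1) (a x.1) (D x.1) x.2.1 x.2.2.1 x.2.2.2.1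
        x.2.2.2.2) := by
  unfold nodeD
  have e0 : PT ∅ (fun x : α × ℕ × ℕ × ℕ × ℕ => x.1) := PT.fst'
  have hpx : PT ∅ (fun x : α × ℕ × ℕ × ℕ × ℕ =>
      posN (μ x.1) (B x.1) (a x.1 * (K x.1 * Tu x.1)) (Tu x.1) (g x.1) x.2.2.2.1) := by fun_prop
  have hpy : PT ∅ (fun x : α × ℕ × ℕ × ℕ × ℕ =>
      posN (μ x.1) (B x.1) (a x.1 * (K x.1 * Tu x.1)) (Tu x.1) (g x.1) x.2.2.2.2) := by fun_prop
  have hlx : PT ∅ (fun x : α × ℕ × ℕ × ℕ × ℕ => labN (K x.1) (Tu x.1) (a x.1)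
      (posN (μ x.1) (B x.1) (a x.1 * (K x.1 * Tu x.1)) (Tu x.1) (g x.1) x.2.2.2.1)) := by fun_prop
  refine PT.ite (by fun_prop) ?_ (by fun_prop)
  exact hD.comp (PT.pair e0 (PT.pair PT.snd'.fst (PT.pair (PT.sub PT.snd'.snd.fst (PT.const 1))
    (PT.pair hlx (PT.pair hpx hpy)))))

theorem PT_stored {K h Tu g NL Dl R T Sh Cc μ B q κ a : α → ℕ}
    {D : α → ℕ → ℕ → ℕ → ℕ → ℕ → ℕ} (hK : PT ∅ K) (hKb : PBd K) (hh : PT ∅ h) (hTu : PT ∅ Tu)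
    (hg : PT ∅ g) (hgb : PBd g) (hNL : PT ∅ NL) (hDl : PT ∅ Dl) (hR : PT ∅ R) (hT : PT ∅ T)
    (hTb : PBd T) (hSh : PT ∅ Sh) (hC : PT ∅ Cc) (hμ : PT ∅ μ) (hB : PT ∅ B) (hq : PT ∅ q)
    (hqb : PBd q) (hκ : PT ∅ κ) (hκb : PBd κ) (ha : PT ∅ a)
    (hD : PT ∅ (fun x : α × ℕ × ℕ × ℕ × ℕ × ℕ =>
      D x.1 x.2.1 x.2.2.1 x.2.2.2.1 x.2.2.2.2.1 x.2.2.2.2.2)) :
    PT ∅ (fun x => stored (K x) (h x) (Tu x) (g x) (NL x) (Dl x) (R x) (T x) (Sh x) (Cc x) (μ x)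
      (B x) (q x) (κ x) (a x) (D x)) := by
  unfold stored
  have hhist : PT ∅ (fun x => histOf (K x + 2) (2 * K x * g x + 1)
      (nodeD (K x) (Tu x) (g x) (μ x) (B x) (a x) (D x)) (κ x)) :=
    PT_histOf (by fun_prop) (by fun_prop) (by fun_prop) (by fun_prop) hκ hκb
      (PT_nodeD hK hTu hg hμ hB ha hD)
  have hl : PT ∅ (fun x => qL (g x) (NL x) (q x)) := by unfold qL; fun_prop
  have hlb : PBd (fun x => qL (g x) (NL x) (q x)) := by unfold qL; fun_prop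
  have ho : PT ∅ (fun x => qO (g x) (NL x) (Dl x) (q x)) := by unfold qO; fun_prop
  have hob : PBd (fun x => qO (g x) (NL x) (Dl x) (q x)) := by unfold qO; fun_prop
  have hr : PT ∅ (fun x => qR (g x) (NL x) (Dl x) (R x) (q x)) := by unfold qR; fun_prop
  have hA : PT ∅ (fun x => qA (g x) (q x)) := by unfold qA; fun_prop
  have hB' : PT ∅ (fun x => qB (g x) (q x)) := by unfold qB; fun_prop
  have h2 : PT ∅ (fun x => 2 ^ qL (g x) (NL x) (q x)) := PT.pow (PT.const 2) hl hlb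
  have h3 : PT ∅ (fun x => 2 ^ (qL (g x) (NL x) (q x) + 1)) :=
    PT.pow (PT.const 2) (hl.add (PT.const 1)) (hlb.add (PBd.const 1))
  exact PT_paths hSh (by fun_prop) hT hTb (by fun_prop) (by fun_prop) hh hDl ho hob (by fun_prop)
    (by fun_prop) hr hhist hκ hκb

/-- **The lane in closure form.** -/
theorem PT_laneN {K h Tu g NL Dl R T Sh Cc μ B q κ a m : α → ℕ} {coin : α → ℕ → ℕ}
    {D : α → ℕ → ℕ → ℕ → ℕ → ℕ → ℕ} (hK : PT ∅ K) (hKb : PBd K) (hh : PT ∅ h) (hTu : PT ∅ Tu)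
    (hg : PT ∅ g) (hgb : PBd g) (hNL : PT ∅ NL) (hDl : PT ∅ Dl) (hR : PT ∅ R) (hT : PT ∅ T)
    (hTb : PBd T) (hSh : PT ∅ Sh) (hC : PT ∅ Cc) (hμ : PT ∅ μ) (hB : PT ∅ B) (hq : PT ∅ q)
    (hqb : PBd q) (hκ : PT ∅ κ) (hκb : PBd κ) (ha : PT ∅ a) (hm : PT ∅ m)
    (hcoin : PT ∅ (fun x : α × ℕ => coin x.1 x.2))
    (hD : PT ∅ (fun x : α × ℕ × ℕ × ℕ × ℕ × ℕ =>
      D x.1 x.2.1 x.2.2.1 x.2.2.2.1 x.2.2.2.2.1 x.2.2.2.2.2)) :
    PT ∅ (fun x => laneN (K x) (h x) (Tu x) (g x) (NL x) (Dl x) (R x) (T x) (Sh x) (Cc x) (μ x)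
      (B x) (q x) (κ x) (a x) (coin x) (D x) (m x)) := by
  unfold laneN pieceOf piece
  have hs := PT_stored hK hKb hh hTu hg hgb hNL hDl hR hT hTb hSh hC hμ hB hq hqb hκ hκb ha hD
  have hqs : PT ∅ (fun x => qS (g x) (NL x) (Dl x) (R x) (q x)) := by unfold qS; fun_prop
  have hc : PT ∅ (fun x => coin x (qS (g x) (NL x) (Dl x) (R x) (q x))) :=
    hcoin.comp (PT.pair (by fun_prop) hqs)
  fun_prop

end Vale.Agent.P315.H801
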